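import Vale.Agent.P088.H198.Defs

/-!
# P088, row DIF: `id + w` is a diffeomorphism for small `w`; composition with the inverse
-/

open MeasureTheory Set
open scoped ContDiff Matrix NNReal

noncomputable section

namespace Vale.Agent.P088.H634

open Vale.Agent.P088.LR

variable {n : ℕ}

/-- The equivalence `1 + A` for `‖A‖ ≤ 1/2`. -/
def eqv {E : Type*} [NormedAddCommGroup E] [NormedSpace ℝ E] [CompleteSpace E]
    (A : E →L[ℝ] E) (h : ‖-A‖ < 1) : E ≃L[ℝ] E :=
  ContinuousLinearEquiv.ofUnit (Units.oneSub (-A) h)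

theorem eqv_coe {E : Type*} [NormedAddCommGroup E] [NormedSpace ℝ E] [CompleteSpace E]
    (A : E →L[ℝ] E) (h : ‖-A‖ < 1) :
    (eqv A h : E →L[ℝ] E) = ContinuousLinearMap.id ℝ E + A := by
  ext x
  have : (eqv A h : E →L[ℝ] E) x = ((Units.oneSub (-A) h : (E →L[ℝ] E)ˣ) : E →L[ℝ] E) x := rfl
  rw [this, Units.val_oneSub]
  simp

theorem lip_approx {E : Type*} [NormedAddCommGroup E] [NormedSpace ℝ E] [CompleteSpace E]
    {w : E → E} (hw : ContDiff ℝ ∞ w) (h1 : ∀ x, ‖fderiv ℝ w x‖ ≤ 1 / 2) :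
    ApproximatesLinearOn (fun x => x + w x)
      ((ContinuousLinearEquiv.refl ℝ E : E ≃L[ℝ] E) : E →L[ℝ] E) univ (1 / 2 : ℝ≥0) := by
  intro x _ y _
  have hd : Differentiable ℝ w := hw.differentiable (by simp)
  have := (convex_univ (𝕜 := ℝ) (E := E)).norm_image_sub_le_of_norm_fderiv_le
    (f := w) (C := 1 / 2) (fun z _ => hd z) (fun z _ => h1 z) (mem_univ y) (mem_univ x)
  have e : (fun x => x + w x) x - (fun x => x + w x) y -
      ((ContinuousLinearEquiv.refl ℝ E : E ≃L[ℝ] E) : E →L[ℝ] E) (x - y) = w x - w y := by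
    simp only [ContinuousLinearEquiv.coe_refl, ContinuousLinearMap.id_apply]
    abel
  rw [e]
  simpa using this

theorem half_lt {E : Type*} [NormedAddCommGroup E] [NormedSpace ℝ E] :
    Subsingleton E ∨ (1 / 2 : ℝ≥0) <
      ‖((ContinuousLinearEquiv.refl ℝ E).symm : E →L[ℝ] E)‖₊⁻¹ := by
  rcases subsingleton_or_nontrivial E with h | h
  · exact Or.inl h
  · right
    have : ‖((ContinuousLinearEquiv.refl ℝ E).symm : E →L[ℝ] E)‖₊ = 1 := by
      have h1 : ((ContinuousLinearEquiv.refl ℝ E).symm : E →L[ℝ] E) =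
          ContinuousLinearMap.id ℝ E := rfl
      rw [h1]
      apply NNReal.eq
      simp
    rw [this]
    norm_num

/-- The homeomorphism `id + w`. -/
def hom {E : Type*} [NormedAddCommGroup E] [NormedSpace ℝ E] [CompleteSpace E]
    {w : E → E} (hw : ContDiff ℝ ∞ w) (h1 : ∀ x, ‖fderiv ℝ w x‖ ≤ 1 / 2) : E ≃ₜ E :=
  ApproximatesLinearOn.toHomeomorph _ (lip_approx hw h1) half_lt

theorem hom_apply {E : Type*} [NormedAddCommGroup E] [NormedSpace ℝ E] [CompleteSpace E]
    {w : E → E} (hw : ContDiff ℝ ∞ w) (h1 : ∀ x, ‖fderiv ℝ w x‖ ≤ 1 / 2) (x : E) :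
    hom hw h1 x = x + w x := rfl

theorem hom_symm_smooth {E : Type*} [NormedAddCommGroup E] [NormedSpace ℝ E] [CompleteSpace E]
    {w : E → E} (hw : ContDiff ℝ ∞ w) (h1 : ∀ x, ‖fderiv ℝ w x‖ ≤ 1 / 2) :
    ContDiff ℝ ∞ (hom hw h1).symm := by
  have hlt : ∀ x, ‖-fderiv ℝ w x‖ < 1 := fun x => by
    rw [norm_neg]; linarith [h1 x]
  refine Homeomorph.contDiff_symm (hom hw h1) (f₀' := fun x => eqv (fderiv ℝ w x) (hlt x)) ?_ ?_
  · intro a
    rw [eqv_coe]
    have hd : HasFDerivAt w (fderiv ℝ w a) a := (hw.differentiable (by simp) a).hasFDerivAt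
    exact (hasFDerivAt_id a).add hd
  · exact contDiff_id.add hw

/-! ## Bounds of the derivatives of the inverse -/

/-- The derivative identity `DK = 1 - (Dw ∘ K) DK`. -/
theorem fderiv_inv {E : Type*} [NormedAddCommGroup E] [NormedSpace ℝ E]
    {w K : E → E} (hw : ContDiff ℝ ∞ w) (hK : ContDiff ℝ ∞ K) (hr : ∀ y, K y + w (K y) = y)
    (y : E) : fderiv ℝ K y = ContinuousLinearMap.id ℝ E -
      (fderiv ℝ w (K y)).comp (fderiv ℝ K y) := by
  have hKd : HasFDerivAt K (fderiv ℝ K y) y := (hK.differentiable (by simp) y).hasFDerivAt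
  have hwd : HasFDerivAt w (fderiv ℝ w (K y)) (K y) :=
    (hw.differentiable (by simp) (K y)).hasFDerivAt
  have h2 : HasFDerivAt (fun y => K y + w (K y))
      (fderiv ℝ K y + (fderiv ℝ w (K y)).comp (fderiv ℝ K y)) y := hKd.add (hwd.comp y hKd)
  have h3 : HasFDerivAt (fun y => K y + w (K y)) (ContinuousLinearMap.id ℝ E) y := by
    have : (fun y => K y + w (K y)) = fun y => y := funext hr
    rw [this]; exact hasFDerivAt_id y
  exact eq_sub_of_add_eq (h2.unique h3)

/-- Bounds for all derivatives of `K` up to order `k`. -/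
theorem bound_inv (k : ℕ) : ∃ D : ℝ, 1 ≤ D ∧ ∀ (n : ℕ) (w K : V n → V n), ContDiff ℝ ∞ w →
    ContDiff ℝ ∞ K → (∀ y, K y + w (K y) = y) → Cl (k + 1) (1 / 2) w →
    ∀ i, 1 ≤ i → i ≤ k → ∀ y, ‖iteratedFDeriv ℝ i K y‖ ≤ D ^ i := by
  induction k with
  | zero => exact ⟨1, le_refl _, fun _ _ _ _ _ _ _ i h1 h2 => by omega⟩
  | succ k ih =>
    obtain ⟨D, hD1, hD⟩ := ih
    set B : ℝ := ∑ i ∈ Finset.range (k + 1), ((k.choose i : ℝ) * ((i.factorial : ℝ) * (1 / 2) *
      D ^ i) * D ^ (k - i + 1)) with hB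
    have hB0 : 0 ≤ B := Finset.sum_nonneg fun i _ => by positivity
    refine ⟨D + 2 * (1 + B), by linarith, ?_⟩
    intro n w K hw hK hr hcl i hi1 hik y
    rcases Nat.lt_or_ge i (k + 1) with hlt | hge
    · have := hD n w K hw hK hr (fun l hl x => hcl l (by omega) x) i hi1 (by omega) y
      refine this.trans (pow_le_pow_left₀ (by linarith) (by linarith) _)
    · have hi : i = k + 1 := le_antisymm hik hge
      subst hi
      have key : ∀ y, ‖iteratedFDeriv ℝ (k + 1) K y‖ ≤ 2 * (1 + B) := by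
        intro y
        rw [← norm_iteratedFDeriv_fderiv]
        have hDK : ContDiff ℝ ∞ (fun y => fderiv ℝ K y) :=
          hK.fderiv_right (m := ∞) (by simp)
        have hDw : ContDiff ℝ ∞ (fun y => fderiv ℝ w y) :=
          hw.fderiv_right (m := ∞) (by simp)
        have hDwK : ContDiff ℝ ∞ (fun y => fderiv ℝ w (K y)) := hDw.comp hK
        have hfun : (fun y => fderiv ℝ K y) = fun y => ContinuousLinearMap.id ℝ (V n) -
            (ContinuousLinearMap.compL ℝ (V n) (V n) (V n)) (fderiv ℝ w (K y))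
              (fderiv ℝ K y) := funext fun y => fderiv_inv hw hK hr y
        have hcomp : ContDiff ℝ ∞ (fun y => (ContinuousLinearMap.compL ℝ (V n) (V n) (V n))
            (fderiv ℝ w (K y)) (fderiv ℝ K y)) :=
          (ContinuousLinearMap.compL ℝ (V n) (V n) (V n)).isBoundedBilinearMap.contDiff.comp
            (hDwK.prodMk hDK)
        have e1 : iteratedFDeriv ℝ k (fun y => fderiv ℝ K y) y =
            iteratedFDeriv ℝ k (fun _ : V n => ContinuousLinearMap.id ℝ (V n)) y -
            iteratedFDeriv ℝ k (fun y => (ContinuousLinearMap.compL ℝ (V n) (V n) (V n))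
              (fderiv ℝ w (K y)) (fderiv ℝ K y)) y := by
          conv_lhs => rw [hfun]
          exact fun_iteratedFDeriv_sub_apply (contDiff_const.contDiffAt)
            ((hcomp.of_le (by exact_mod_cast le_top)).contDiffAt)
        have e2 : ‖iteratedFDeriv ℝ k (fun _ : V n => ContinuousLinearMap.id ℝ (V n)) y‖ ≤ 1 := by
          rcases Nat.eq_zero_or_pos k with h0 | h0
          · subst h0
            rw [norm_iteratedFDeriv_zero]
            exact ContinuousLinearMap.norm_id_le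
          · rw [iteratedFDeriv_const_of_ne (by omega)]
            simp
        have e3 := (ContinuousLinearMap.compL ℝ (V n) (V n)
          (V n)).norm_iteratedFDeriv_le_of_bilinear_of_le_one (N := ∞) hDwK hDK y (n := k)
          (by exact_mod_cast le_top) (ContinuousLinearMap.norm_compL_le ℝ (V n) (V n) (V n))
        have e4 : ∀ i ≤ k, ‖iteratedFDeriv ℝ i (fun y => fderiv ℝ w (K y)) y‖ ≤
            (i.factorial : ℝ) * (1 / 2) * D ^ i := by
          intro i hi
          exact norm_iteratedFDeriv_comp_le (g := fun y => fderiv ℝ w y) (f := K) (N := ∞)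
            hDw hK (by exact_mod_cast le_top) y (C := 1 / 2) (D := D)
            (fun j hj => by
              rw [norm_iteratedFDeriv_fderiv]; exact hcl (j + 1) (by omega) _)
            (fun j hj1 hj2 => hD n w K hw hK hr (fun l hl x => hcl l (by omega) x) j hj1
              (by omega) y)
        have e5 : ∑ i ∈ Finset.range (k + 1), (k.choose i : ℝ) *
            ‖iteratedFDeriv ℝ i (fun y => fderiv ℝ w (K y)) y‖ *
            ‖iteratedFDeriv ℝ (k - i) (fun y => fderiv ℝ K y) y‖ ≤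
            (1 / 2) * ‖iteratedFDeriv ℝ k (fun y => fderiv ℝ K y) y‖ + B := by
          rw [Finset.sum_range_succ', hB, Finset.sum_range_succ' (n := k)]
          have f1 : ∑ i ∈ Finset.range k, (k.choose (i + 1) : ℝ) *
              ‖iteratedFDeriv ℝ (i + 1) (fun y => fderiv ℝ w (K y)) y‖ *
              ‖iteratedFDeriv ℝ (k - (i + 1)) (fun y => fderiv ℝ K y) y‖ ≤
              ∑ i ∈ Finset.range k, ((k.choose (i + 1) : ℝ) *
                (((i + 1).factorial : ℝ) * (1 / 2) * D ^ (i + 1)) * D ^ (k - (i + 1) + 1)) := by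
            refine Finset.sum_le_sum fun i hi => ?_
            have hik : i + 1 ≤ k := Finset.mem_range.1 hi
            have g1 := e4 (i + 1) hik
            have g2 : ‖iteratedFDeriv ℝ (k - (i + 1)) (fun y => fderiv ℝ K y) y‖ ≤
                D ^ (k - (i + 1) + 1) := by
              rw [norm_iteratedFDeriv_fderiv]
              exact hD n w K hw hK hr (fun l hl x => hcl l (by omega) x) _ (by omega)
                (by omega) y
            gcongr
          have f2 : (k.choose 0 : ℝ) * ‖iteratedFDeriv ℝ 0 (fun y => fderiv ℝ w (K y)) y‖ *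
              ‖iteratedFDeriv ℝ (k - 0) (fun y => fderiv ℝ K y) y‖ ≤
              (1 / 2) * ‖iteratedFDeriv ℝ k (fun y => fderiv ℝ K y) y‖ := by
            have g1 : ‖iteratedFDeriv ℝ 0 (fun y => fderiv ℝ w (K y)) y‖ ≤ 1 / 2 := by
              have := e4 0 (Nat.zero_le _)
              simpa using this
            rw [Nat.choose_zero_right, Nat.cast_one, one_mul, Nat.sub_zero]
            gcongr
          have f3 : (0 : ℝ) ≤ (k.choose 0 : ℝ) * (((0 : ℕ).factorial : ℝ) * (1 / 2) * D ^ 0) *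
              D ^ (k - 0 + 1) := by positivity
          linarith
        have e6 : ‖iteratedFDeriv ℝ k (fun y => fderiv ℝ K y) y‖ ≤
            1 + ((1 / 2) * ‖iteratedFDeriv ℝ k (fun y => fderiv ℝ K y) y‖ + B) := by
          calc ‖iteratedFDeriv ℝ k (fun y => fderiv ℝ K y) y‖
              ≤ ‖iteratedFDeriv ℝ k (fun _ : V n => ContinuousLinearMap.id ℝ (V n)) y‖ +
                ‖iteratedFDeriv ℝ k (fun y => (ContinuousLinearMap.compL ℝ (V n) (V n) (V n))
                  (fderiv ℝ w (K y)) (fderiv ℝ K y)) y‖ := by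
                rw [e1]; exact norm_sub_le _ _
            _ ≤ 1 + ((1 / 2) * ‖iteratedFDeriv ℝ k (fun y => fderiv ℝ K y) y‖ + B) :=
                add_le_add e2 (e3.trans e5)
        linarith
      have h1 : (1 : ℝ) ≤ D + 2 * (1 + B) := by linarith
      calc ‖iteratedFDeriv ℝ (k + 1) K y‖ ≤ 2 * (1 + B) := key y
        _ ≤ D + 2 * (1 + B) := by linarith
        _ = (D + 2 * (1 + B)) ^ 1 := (pow_one _).symm
        _ ≤ (D + 2 * (1 + B)) ^ (k + 1) := pow_le_pow_right₀ h1 (by omega)

/-- The determinant of `1 + Dw` is positive. -/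
theorem det_pos {w : V n → V n} (h1 : ∀ x, ‖fderiv ℝ w x‖ ≤ 1 / 2) (x : V n) :
    0 < (jm w x).det := by
  set A : V n →L[ℝ] V n := fderiv ℝ w x with hA
  have hjm : ∀ t : ℝ, (1 + t • LinearMap.toMatrix' (A : V n →ₗ[ℝ] V n)) =
      LinearMap.toMatrix' (LinearMap.id + t • (A : V n →ₗ[ℝ] V n)) := by
    intro t
    rw [map_add, map_smul, LinearMap.toMatrix'_id]
  have hne : ∀ t ∈ Icc (0 : ℝ) 1, (1 + t • LinearMap.toMatrix' (A : V n →ₗ[ℝ] V n)).det ≠ 0 := by
    intro t ht
    rw [hjm t, LinearMap.det_toMatrix']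
    intro h0
    have hker := LinearMap.bot_lt_ker_of_det_eq_zero h0
    obtain ⟨v, hv, hv0⟩ := Submodule.exists_mem_ne_zero_of_ne_bot (bot_lt_iff_ne_bot.1 hker)
    have hv' : v + t • A v = 0 := by simpa using hv
    have h2 : ‖v‖ ≤ 1 / 2 * ‖v‖ := by
      have h3 : v = -(t • A v) := eq_neg_of_add_eq_zero_left hv'
      calc ‖v‖ = ‖-(t • A v)‖ := by rw [← h3]
        _ = |t| * ‖A v‖ := by rw [norm_neg, norm_smul, Real.norm_eq_abs]
        _ ≤ 1 * (1 / 2 * ‖v‖) := by
            refine mul_le_mul ?_ ?_ (norm_nonneg _) zero_le_one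
            · rw [abs_of_nonneg ht.1]; exact ht.2
            · exact (A.le_opNorm v).trans
                (mul_le_mul_of_nonneg_right (h1 x) (norm_nonneg _))
        _ = 1 / 2 * ‖v‖ := one_mul _
    have : 0 < ‖v‖ := norm_pos_iff.2 hv0
    linarith
  have hcont : ContinuousOn (fun t : ℝ => (1 + t • LinearMap.toMatrix' (A : V n →ₗ[ℝ] V n)).det)
      (Icc 0 1) := by
    apply Continuous.continuousOn
    apply Continuous.matrix_det
    exact continuous_const.add (continuous_id.smul continuous_const)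
  have h0 : (1 + (0 : ℝ) • LinearMap.toMatrix' (A : V n →ₗ[ℝ] V n)).det = 1 := by
    rw [zero_smul, add_zero, Matrix.det_one]
  have hj : jm w x = 1 + (1 : ℝ) • LinearMap.toMatrix' (A : V n →ₗ[ℝ] V n) := by
    ext i j
    rw [one_smul, Matrix.add_apply, LinearMap.toMatrix'_apply]
    simp only [jm, pd]
    rfl
  rw [hj]
  by_contra hneg
  have hlt : (1 + (1 : ℝ) • LinearMap.toMatrix' (A : V n →ₗ[ℝ] V n)).det < 0 :=
    lt_of_le_of_ne (not_lt.1 hneg) (hne 1 ⟨zero_le_one, le_refl _⟩)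
  have hmem : (0 : ℝ) ∈ Icc (1 + (1 : ℝ) • LinearMap.toMatrix' (A : V n →ₗ[ℝ] V n)).det
      (1 + (0 : ℝ) • LinearMap.toMatrix' (A : V n →ₗ[ℝ] V n)).det := by
    rw [h0]; exact ⟨hlt.le, zero_le_one⟩
  obtain ⟨t, ht, ht0⟩ := intermediate_value_Icc' zero_le_one hcont hmem
  exact hne t ht ht0

/-- Row DIF. -/
theorem rowDIF : RowDIF := by
  intro n k
  obtain ⟨D, hD1, hD⟩ := bound_inv k
  refine ⟨(k.factorial : ℝ) * D ^ k, 1 / 2, by positivity, by norm_num, ?_⟩
  intro Ω w hw hz hcl
  have h1 : ∀ x, ‖fderiv ℝ w x‖ ≤ 1 / 2 := fun x => by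
    rw [← norm_iteratedFDeriv_one]
    exact hcl 1 (by omega) x
  have hdif : Dif Ω w (hom hw h1).symm :=
    { sw := hw
      sK := hom_symm_smooth hw h1
      l := fun x => by
        rw [← hom_apply hw h1 x]; exact (hom hw h1).symm_apply_apply x
      r := fun y => by
        rw [← hom_apply hw h1 ((hom hw h1).symm y)]; exact (hom hw h1).apply_symm_apply y
      z := hz
      dp := det_pos h1 }
  refine ⟨(hom hw h1).symm, hdif, ?_⟩
  intro f hf δ hδ l hl x
  have hδ0 : 0 ≤ δ := (norm_nonneg _).trans (hδ 0 (Nat.zero_le _) x)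
  have := norm_iteratedFDeriv_comp_le (g := f) (f := (hom hw h1).symm) (N := ∞) hf hdif.sK
    (n := l) (by exact_mod_cast le_top) x (C := δ) (D := D) (fun j hj => hδ j (by omega) _)
    (fun j hj1 hj2 => hD n w _ hw hdif.sK hdif.r hcl j hj1 (by omega) x)
  refine this.trans ?_
  calc (l.factorial : ℝ) * δ * D ^ l ≤ (k.factorial : ℝ) * δ * D ^ k := by
        have h2 : (l.factorial : ℝ) ≤ k.factorial := by
          exact_mod_cast Nat.factorial_le hl
        have h3 : D ^ l ≤ D ^ k := pow_le_pow_right₀ hD1 hl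
        gcongr
    _ = (k.factorial : ℝ) * D ^ k * δ := by ring

end Vale.Agent.P088.H634
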