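import Vale.Agent.P088.H634.UCoreA

/-!
# P088, row U_CORE: assembly 1 (rigidity with equal real trace coordinates)
-/

open MeasureTheory Set
open scoped ContDiff Matrix

noncomputable section

namespace Vale.Agent.P088.H634

open Vale.Agent.P088.LR Vale.Agent.P088.LR.CF Vale.Agent.P088.LR.U

variable {n N : ℕ}

theorem dg_eq634 (σ : V n → ℝ) (F : MC n N) (i j : Fin n) (x : V n) :
    TF (sc σ) F i j x = dg (fun x => (σ x : ℂ) • PF F x) i j x := by
  unfold dg TF sc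
  by_cases h : i = j
  · simp [h]
  · simp [h]

theorem KF_anti634 (A : Cn n N) (F : MC n N) (j : Fin n) (x : V n) :
    (KF A F j x)ᴴ = -KF A F j x := by
  unfold KF
  rw [Matrix.conjTranspose_sub, Matrix.conjTranspose_mul, Matrix.conjTranspose_mul,
    Matrix.conjTranspose_conjTranspose, Matrix.conjTranspose_conjTranspose, neg_sub]

theorem qF_anti634 (s : MF n) (A : Cn n N) (F : MC n N) (i : Fin n) (x : V n) :
    (qF s A F i x)ᴴ = -qF s A F i x := by
  unfold qF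
  rw [Matrix.conjTranspose_sum, ← Finset.sum_neg_distrib]
  refine Finset.sum_congr rfl fun j _ => ?_
  rw [Matrix.conjTranspose_smul, KF_anti634, smul_neg]
  simp

theorem PF_herm634 (F : MC n N) (x : V n) : (PF F x)ᴴ = PF F x := by
  unfold PF
  rw [Matrix.conjTranspose_mul, Matrix.conjTranspose_conjTranspose]

theorem cdC_off634 {Ω : Set (V n)} (hi : interior (closure Ω) = Ω) {A₁ A : Cn n N}
    (hA : ∀ i, ∀ x ∉ Ω, A i x = A₁ i x) {F₁ F : MC n N} (hF₁ : H158.SmC F₁) (hF : H158.SmC F)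
    (h : ∀ x ∉ Ω, F x = F₁ x) (i : Fin n) {x : V n} (hx : x ∉ Ω) :
    cdC A i F x = cdC A₁ i F₁ x := by
  have h1 := pdm_off634 hi (H705.UFin.SmC_sub hF hF₁) (fun y hy => by rw [h y hy, sub_self]) i hx
  rw [H705.UFin.pdm_sub hF hF₁, sub_eq_zero] at h1
  unfold cdC
  rw [h1, hA i x hx, h x hx]

theorem qF_off634 {Ω : Set (V n)} (hi : interior (closure Ω) = Ω) {s₁ s : MF n}
    (hs : ∀ x ∉ Ω, s x = s₁ x) {A₁ A : Cn n N}
    (hA : ∀ i, ∀ x ∉ Ω, A i x = A₁ i x) {F₁ F : MC n N} (hF₁ : H158.SmC F₁) (hF : H158.SmC F)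
    (h : ∀ x ∉ Ω, F x = F₁ x) (i : Fin n) {x : V n} (hx : x ∉ Ω) :
    qF s A F i x = qF s₁ A₁ F₁ i x := by
  unfold qF KF
  refine Finset.sum_congr rfl fun j _ => ?_
  rw [cdC_off634 hi hA hF₁ hF h j hx, hs x hx, h x hx]

theorem pdm_coo634 (a i : Fin n) (x : V n) :
    pdm i (fun y : V n => ((y a : ℝ) : ℂ) • (1 : Matrix (Fin N) (Fin N) ℂ)) x
      = if i = a then 1 else 0 := by
  have h1 : pd i (fun y : V n => ((y a : ℝ) : ℂ)) x = if i = a then 1 else 0 := by
    have h2 := H158.pd_clm (Complex.ofRealCLM.comp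
      (ContinuousLinearMap.proj (R := ℝ) (φ := fun _ : Fin n => ℝ) a))
      (f := fun y : V n => y) (x := x) differentiableAt_id i
    have h3 : pd i (fun y : V n => y) x = Pi.single i 1 := by
      unfold pd
      rw [fderiv_fun_id]
      rfl
    rw [h3] at h2
    refine Eq.trans h2 ?_
    show (((Pi.single i (1 : ℝ) : V n) a : ℝ) : ℂ) = _
    rw [Pi.single_apply]
    by_cases h : i = a
    · simp [h]
    · simp [h, Ne.symm h]
  rw [H705.UFin.pdm_smul (coo_sm634 a) (smC_const634 _), h1, H158.pdm_const, smul_zero, add_zero]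
  by_cases h : i = a
  · simp [h]
  · simp [h]

/-- **Row U_CORE.** -/
theorem ucore (hRED : RowREDU) (hGAU : RowGAU) (hSM : RowSMU) (hINV : RowINV) (hABS : RowABSU)
    (hFIN : RowFINU) (hA3 : RowA3) : ∀ n N : ℕ, 2 ≤ n → 1 ≤ N →
    ∃ (k : ℕ) (ε : ℝ), 0 < ε ∧ CoreU n N k ε := by
  intro n N hn hN
  obtain ⟨m, M, εa, hεa, habs⟩ := hABS n N hn hN
  obtain ⟨CA, hCA, hA3'⟩ := hA3 n m
  obtain ⟨L, hLM, hLm⟩ : ∃ L : ℕ, M ≤ L ∧ m + n + 1 ≤ L := ⟨max M (m + n + 1), le_max_left _ _,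
    le_max_right _ _⟩
  obtain ⟨CI', εI', hCI', hεI', hinv'⟩ := hINV n N L
  obtain ⟨ε', hε', e1, e2, e3, e4⟩ : ∃ ε' : ℝ, 0 < ε' ∧ ε' ≤ εa ∧ ε' ≤ εI' ∧
      CA * (ε' + ε') ≤ εa ∧ CI' * ε' ≤ εa := by
    refine ⟨min (min εa εI') (min (εa / (2 * CA)) (εa / CI')), by positivity,
      (min_le_left _ _).trans (min_le_left _ _), (min_le_left _ _).trans (min_le_right _ _), ?_, ?_⟩
    · have h1 : min (min εa εI') (min (εa / (2 * CA)) (εa / CI')) ≤ εa / (2 * CA) :=
        (min_le_right _ _).trans (min_le_left _ _)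
      rw [le_div_iff₀ (by positivity)] at h1
      linarith
    · have h1 : min (min εa εI') (min (εa / (2 * CA)) (εa / CI')) ≤ εa / CI' :=
        (min_le_right _ _).trans (min_le_right _ _)
      rw [le_div_iff₀ (by positivity)] at h1
      linarith
  obtain ⟨δs, hδs, hsmu⟩ := hSM n N L ε' hε'
  obtain ⟨CI, εI, hCI, hεI, hinv⟩ := hINV n N (L + 1)
  obtain ⟨CZ, hCZ, hz⟩ := zb634 n N (L + 1)
  obtain ⟨ε, hε, f1, f2, f3, f4, f5⟩ : ∃ ε : ℝ, 0 < ε ∧ ε ≤ δs ∧ ε ≤ εI ∧ (1 + CI) * ε ≤ 1 ∧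
      CZ * ((1 + CI) * ε) ≤ εa ∧ ε ≤ εa := by
    refine ⟨min (min δs εI) (min (min (1 / (1 + CI)) (εa / (CZ * (1 + CI)))) εa), by positivity,
      (min_le_left _ _).trans (min_le_left _ _), (min_le_left _ _).trans (min_le_right _ _), ?_, ?_,
      (min_le_right _ _).trans (min_le_right _ _)⟩
    · have h1 : min (min δs εI) (min (min (1 / (1 + CI)) (εa / (CZ * (1 + CI)))) εa)
          ≤ 1 / (1 + CI) :=
        (min_le_right _ _).trans ((min_le_left _ _).trans (min_le_left _ _))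
      rw [le_div_iff₀ (by positivity)] at h1
      linarith
    · have h1 : min (min δs εI) (min (min (1 / (1 + CI)) (εa / (CZ * (1 + CI)))) εa)
          ≤ εa / (CZ * (1 + CI)) :=
        (min_le_right _ _).trans ((min_le_left _ _).trans (min_le_right _ _))
      rw [le_div_iff₀ (by positivity)] at h1
      linarith
  refine ⟨L + 1, ε, hε, ?_⟩
  intro Ω hΩ hreg hΩb σ s hσ hσp hs hsy hoff hσc hsc A₁ A hA₁ hA hAoff hA₁c hAc F₁ F X₁ X hF₁ hF
    hX₁ hX hFoff hXoff hF₁c hFc hX₁c hXc hL1 hL2 hLX1 hLX2 htr hOr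
  have hΩbal : Ω ⊆ bal n := by
    intro x hx
    have h1 : ∑ j, (x j - 1 / 2) ^ 2 ≤ 1 / 64 := hΩb hx
    show ∑ j, (x j - 1 / 2) ^ 2 ≤ 1 / 16
    linarith
  have hΩc : Ω ⊆ core n := hΩbal.trans bal_subset_core442
  have hbd : Bornology.IsBounded Ω := H129.isCompact_core.isBounded.subset hΩc
  have hs1 : SmM (sc σ) := smM_sc442 hσ
  have hy1 : ∀ x, (sc σ x).IsSymm := symm_sc442 σ
  have hs1c := cl_sc442 hε.le hσc
  -- smallness of the reduced data
  obtain ⟨a1, a2, a3, a4, a5, a6⟩ := hsmu (sc σ) A₁ F₁ hs1 hA₁ hF₁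
    (fun i j => H535.cl_le (hs1c i j) (Nat.le_succ L) f1)
    (fun i a b => H535.cl_le (hA₁c i a b) (Nat.le_succ L) f1)
    (fun a b => H535.cl_le (hF₁c a b) le_rfl f1)
  obtain ⟨b1, b2, b3, b4, b5, b6⟩ := hsmu s A F hs hA hF
    (fun i j => H535.cl_le (hsc i j) (Nat.le_succ L) f1)
    (fun i a b => H535.cl_le (hAc i a b) (Nat.le_succ L) f1)
    (fun a b => H535.cl_le (hFc a b) le_rfl f1)
  obtain ⟨iu1, is1, ic1⟩ := hinv F₁ hF₁ ε hε.le f2 hF₁c
  obtain ⟨iu, is, ic⟩ := hinv F hF ε hε.le f2 hFc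
  obtain ⟨r1, r2, r3⟩ := hRED Ω hΩ hbd hreg (sc σ) s hs1 hs hy1 hsy hoff A₁ A hA₁ hA hAoff F₁ F
    hF₁ hF iu1 iu hFoff hL1 hL2 hOr
  -- the background `τ`
  obtain ⟨τ, hτ⟩ : ∃ τ : MC n N, τ = fun x => (σ x : ℂ) • PF F₁ x := ⟨_, rfl⟩
  have hτd : ∀ i j x, TF (sc σ) F₁ i j x = dg τ i j x := by
    intro i j x
    rw [hτ]
    exact dg_eq634 σ F₁ i j x
  have i0 : Fin n := ⟨0, by omega⟩
  have hτT : τ = TF (sc σ) F₁ i0 i0 := by
    funext x
    rw [hτd i0 i0 x]
    simp [dg]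
  have hτs : H158.SmC τ := by rw [hτT]; exact a2 i0 i0
  have hτc : ClC L ε' (fun x => τ x - 1) := by
    have h1 := a6 i0 i0
    simp only [if_true] at h1
    rw [hτT]
    exact h1
  obtain ⟨tu, ts, tc⟩ := hinv' τ hτs ε' hε'.le e2 hτc
  -- the difference
  have hToff : ∀ i j, ∀ x ∉ Ω, TF s F i j x = TF (sc σ) F₁ i j x := by
    intro i j x hx
    unfold TF PF
    rw [hoff x hx, hFoff x hx]
  have hqoff : ∀ i, ∀ x ∉ Ω, qF s A F i x = qF (sc σ) A₁ F₁ i x := fun i x hx =>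
    qF_off634 hreg hoff hAoff hF₁ hF hFoff i hx
  have hqs : ∀ i, H158.SmC fun x => qF s A F i x - qF (sc σ) A₁ F₁ i x := fun i =>
    H705.UFin.SmC_sub (b3 i) (a3 i)
  have hhs : ∀ i j, H158.SmC fun x => TF s F i j x - TF (sc σ) F₁ i j x := fun i j =>
    H705.UFin.SmC_sub (b2 i j) (a2 i j)
  have hbk : BkU Ω τ (fun x => (τ x)⁻¹) (qF (sc σ) A₁ F₁)
      (fun i j x => TF s F i j x - TF (sc σ) F₁ i j x)
      (fun i x => qF s A F i x - qF (sc σ) A₁ F₁ i x) := by
    refine ⟨hΩ, hΩb, hτs, ts, fun x => Matrix.mul_nonsing_inv _ (tu x), a3, hhs, hqs, ?_, ?_, ?_,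
      ?_, ?_⟩
    · intro i j
      funext x
      have h1 : s x i j = s x j i := (hsy x).apply j i
      have h2 : sc σ x i j = sc σ x j i := (hy1 x).apply j i
      simp only [TF, h1, h2]
    · intro i j x hx
      rw [hToff i j x hx, sub_self]
    · intro i x hx
      rw [hqoff i x hx, sub_self]
    · intro x
      by_cases hx : x ∈ Ω
      · have h1 : ∀ i ∈ Finset.univ, pdm i (fun x => qF s A F i x - qF (sc σ) A₁ F₁ i x) x
            = pdm i (qF s A F i) x - pdm i (qF (sc σ) A₁ F₁ i) x := fun i _ =>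
          H705.UFin.pdm_sub (b3 i) (a3 i) i x
        rw [Finset.sum_congr rfl h1, Finset.sum_sub_distrib, r1 x hx, r2 x hx, sub_self]
      · exact Finset.sum_eq_zero fun i _ =>
          pdm_off634 hreg (hqs i) (fun y hy => by rw [hqoff i y hy, sub_self]) i hx
    · have g1 : TF (sc σ) F₁ = dg τ := by
        funext i j x
        exact hτd i j x
      have g2 : (fun i j x => dg τ i j x + (TF s F i j x - TF (sc σ) F₁ i j x)) = TF s F := by
        funext i j x
        rw [← hτd i j x]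
        abel
      have g3 : (fun i x => qF (sc σ) A₁ F₁ i x + (qF s A F i x - qF (sc σ) A₁ F₁ i x))
          = qF s A F := by
        funext i x
        abel
      rw [g2, g3, ← g1]
      exact r3
  -- the coordinates
  have hYs : ∀ a, H158.SmC fun x => (F x)⁻¹ * X a x := fun a => H158.SmC_mul is (hX a)
  have hY1s : ∀ a, H158.SmC fun x => (F₁ x)⁻¹ * X₁ a x := fun a => H158.SmC_mul is1 (hX₁ a)
  have hYoff : ∀ a, ∀ x ∉ Ω, (F x)⁻¹ * X a x = (F₁ x)⁻¹ * X₁ a x := by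
    intro a x hx
    rw [hFoff x hx, hXoff a x hx]
  have hcs : ∀ a : Fin n, H158.SmC fun x : V n => ((x a : ℝ) : ℂ) • (1 : Matrix (Fin N) (Fin N) ℂ) :=
    fun a => H705.UFin.SmC_smul (coo_sm634 a) (smC_const634 _)
  have hZs : ∀ a, H158.SmC fun x => chc634 x • ((F x)⁻¹ * X a x - ((x a : ℝ) : ℂ) • 1) := fun a =>
    H705.UFin.SmC_smul chc_sm634 (H705.UFin.SmC_sub (hYs a) (hcs a))
  have hGs : ∀ a i, H158.SmC (pdm i fun x => chc634 x • ((F x)⁻¹ * X a x - ((x a : ℝ) : ℂ) • 1)) :=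
    fun a i => H705.UFin.SmC_pdm (hZs a) i
  have hG0 : ∀ a i, ∀ x ∉ core n,
      pdm i (fun x => chc634 x • ((F x)⁻¹ * X a x - ((x a : ℝ) : ℂ) • 1)) x = 0 := by
    intro a i x hx
    have h1 : IsOpen (core n)ᶜ := H129.isCompact_core.isClosed.isOpen_compl
    rw [H158.pdm_congr h1 (Q := fun _ => 0) (fun y hy => by rw [chc_zero634 hy, zero_smul]) hx i]
    exact H158.pdm_const 0 x i
  have hG1 : ∀ a i, ∀ x ∈ Ω, (if i = a then (1 : Matrix (Fin N) (Fin N) ℂ) else 0)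
      + pdm i (fun x => chc634 x • ((F x)⁻¹ * X a x - ((x a : ℝ) : ℂ) • 1)) x
      = pdm i (fun x => (F x)⁻¹ * X a x) x := by
    intro a i x hx
    rw [H158.pdm_congr hΩ (Q := fun x => (F x)⁻¹ * X a x - ((x a : ℝ) : ℂ) • 1)
      (fun y hy => by rw [chc_one634 (hΩb hy), one_smul]) hx i,
      H705.UFin.pdm_sub (hYs a) (hcs a), pdm_coo634]
    abel
  have hZc : ∀ a, ClC (L + 1) εa
      (fun x => chc634 x • ((F x)⁻¹ * X a x - ((x a : ℝ) : ℂ) • 1)) := by
    intro a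
    have h1 : (fun x => chc634 x • ((F x)⁻¹ * X a x - ((x a : ℝ) : ℂ) • 1))
        = fun x => chc634 x • ((X a x - ((x a : ℝ) : ℂ) • 1) + ((x a : ℝ) : ℂ) • ((F x)⁻¹ - 1)
          + ((F x)⁻¹ - 1) * (X a x - ((x a : ℝ) : ℂ) • 1)) := by
      funext x
      congr 1
      rw [Matrix.sub_mul, Matrix.mul_sub, Matrix.one_mul, Matrix.mul_smul, Matrix.mul_one, smul_sub]
      abel
    rw [h1]
    have h2 := hz (fun x => (F x)⁻¹ - 1) (fun x => X a x - ((x a : ℝ) : ℂ) • 1) a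
      (H705.UFin.SmC_sub is (smC_const634 _)) (H705.UFin.SmC_sub (hX a) (hcs a))
      ((1 + CI) * ε) (by positivity) f3
      (fun α β => H535.cl_le (ic α β) le_rfl (by nlinarith))
      (fun α β => H535.cl_le (hXc a α β) le_rfl (by nlinarith))
    intro α β
    exact H535.cl_le (h2 α β) le_rfl f4
  have hGc : ∀ a i, ClC M εa
      (pdm i fun x => chc634 x • ((F x)⁻¹ * X a x - ((x a : ℝ) : ℂ) • 1)) := by
    intro a i α β
    exact H535.cl_le (cl_pd634 (hZs a α β) (hZc a α β) i) hLM le_rfl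
  -- the conclusion
  have hh := habs Ω τ (fun x => (τ x)⁻¹) (qF (sc σ) A₁ F₁)
    (fun i j x => TF s F i j x - TF (sc σ) F₁ i j x)
    (fun i x => qF s A F i x - qF (sc σ) A₁ F₁ i x) hbk
    (fun α β => H535.cl_le (hτc α β) hLM e1)
    (fun α β => H535.cl_le (tc α β) hLM e4)
    (fun i α β => H535.cl_le (a5 i α β) hLM e1)
    σ s (PF F₁) (PF F) hσ hs a1 b1 (PF_herm634 F₁) (PF_herm634 F)
    (fun x => by rw [hτ])
    (fun i j x => by
      rw [← hτd i j x]
      show _ = TF s F i j x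
      abel)
    (H535.cl_le hσc (hLM.trans (Nat.le_succ L)) f5)
    (fun i j => H535.cl_le (hsc i j) (hLM.trans (Nat.le_succ L)) f5)
    (fun α β => H535.cl_le (a4 α β) hLM e1)
    (fun α β => H535.cl_le (b4 α β) hLM e1)
    (fun i x => by
      rw [Matrix.conjTranspose_sub, qF_anti634, qF_anti634]
      abel)
    (fun a i => pdm i fun x => chc634 x • ((F x)⁻¹ * X a x - ((x a : ℝ) : ℂ) • 1))
    (fun a x => (F x)⁻¹ * X a x - (F₁ x)⁻¹ * X₁ a x)
    hGs hG0 hGc (fun a => H705.UFin.SmC_sub (hYs a) (hY1s a))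
    (fun a x hx => by rw [hYoff a x hx, sub_self])
    (fun a x => by
      by_cases hx : x ∈ Ω
      · rw [Matrix.trace_sub, Complex.sub_re, htr x hx a, sub_self]
      · rw [hYoff a x hx, sub_self, Matrix.trace_zero, Complex.zero_re])
    (fun a x => gauge634 hΩ hreg hτs a2 b2 hτd hToff hqoff (hY1s a) (hYs a) (hYoff a) (hGs a)
      (hG1 a)
      (hGAU Ω hΩ (sc σ) hs1 hy1 A₁ hA₁ F₁ (fun x => (F₁ x)⁻¹ * X₁ a x) hF₁ (hY1s a) hL1
        (fun x hx => by
          have h1 : (fun y => F₁ y * ((F₁ y)⁻¹ * X₁ a y)) = X₁ a := by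
            funext y
            rw [← Matrix.mul_assoc, Matrix.mul_nonsing_inv _ (iu1 y), Matrix.one_mul]
          rw [h1]
          exact hLX1 a x hx))
      (hGAU Ω hΩ s hs hsy A hA F (fun x => (F x)⁻¹ * X a x) hF (hYs a) hL2
        (fun x hx => by
          have h1 : (fun y => F y * ((F y)⁻¹ * X a y)) = X a := by
            funext y
            rw [← Matrix.mul_assoc, Matrix.mul_nonsing_inv _ (iu y), Matrix.one_mul]
          rw [h1]
          exact hLX2 a x hx)) x)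
    (fun i j α β => by
      have h1 : ContDiff ℝ ∞ (fun x => (TF s F i j x - TF (sc σ) F₁ i j x) α β) := hhs i j α β
      have h2 : tsupport (fun x => (TF s F i j x - TF (sc σ) F₁ i j x) α β) ⊆ core n := by
        refine closure_minimal ?_ H129.isCompact_core.isClosed
        intro x hx
        by_contra hc
        refine hx ?_
        show (TF s F i j x - TF (sc σ) F₁ i j x) α β = 0
        rw [hToff i j x fun h => hc (hΩc h), sub_self]
        rfl
      have h3 : Cl (m + n + 1) (ε' + ε') (fun x => (TF s F i j x - TF (sc σ) F₁ i j x) α β) := by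
        have h4 := cl_sub634 (F := ℂ)
          ((H705.UFin.SmC_sub (b2 i j) (smC_const634 (if i = j then 1 else 0))) α β)
          ((H705.UFin.SmC_sub (a2 i j) (smC_const634 (if i = j then 1 else 0))) α β)
          (b6 i j α β) (a6 i j α β)
        have h5 : (fun x => (TF s F i j x - TF (sc σ) F₁ i j x) α β) = fun x =>
            (TF s F i j x - (if i = j then 1 else 0)) α β
              - (TF (sc σ) F₁ i j x - (if i = j then 1 else 0)) α β := by
          funext x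
          simp only [Matrix.sub_apply]
          ring
        rw [h5]
        exact H535.cl_le h4 hLm le_rfl
      exact ((hA3' _ h1 (h2.trans H129.core_subset_cube) 0 (by simp)).2.2 _ h3).trans e3)
    (fun i α β => by
      have h1 : ContDiff ℝ ∞ (fun x => (qF s A F i x - qF (sc σ) A₁ F₁ i x) α β) := hqs i α β
      have h2 : tsupport (fun x => (qF s A F i x - qF (sc σ) A₁ F₁ i x) α β) ⊆ core n := by
        refine closure_minimal ?_ H129.isCompact_core.isClosed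
        intro x hx
        by_contra hc
        refine hx ?_
        show (qF s A F i x - qF (sc σ) A₁ F₁ i x) α β = 0
        rw [hqoff i x fun h => hc (hΩc h), sub_self]
        rfl
      have h3 : Cl (m + n + 1) (ε' + ε') (fun x => (qF s A F i x - qF (sc σ) A₁ F₁ i x) α β) :=
        H535.cl_le (cl_sub634 (b3 i α β) (a3 i α β) (b5 i α β) (a5 i α β)) hLm le_rfl
      exact ((hA3' _ h1 (h2.trans H129.core_subset_cube) 0 (by simp)).2.2 _ h3).trans e3)
  exact hFIN (by omega) hN Ω hΩ hΩc σ s hσ hσp hs hsy hoff A₁ A hA₁ hA hAoff F₁ F hF₁ hF iu1 iu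
    hFoff hL1 hL2 (fun i j x => sub_eq_zero.1 (hh.1 i j x)) (fun i x => sub_eq_zero.1 (hh.2 i x))

end Vale.Agent.P088.H634
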