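import Vale.Agent.P088.H599.J.Defs
import Vale.Agent.P088.H535.USmk
import Vale.Agent.P088.H705.UFin
import Vale.Agent.P088.H442.CFScale

/-!
# P088, row U_CORE: assembly 1 (rigidity with equal real trace coordinates)
-/

open MeasureTheory Set
open scoped ContDiff Matrix

noncomputable section

namespace Vale.Agent.P088.H634

open Vale.Agent.P088.LR Vale.Agent.P088.LR.CF Vale.Agent.P088.LR.U

variable {n N : ℕ}

/-! ### functions equal to zero off a regular open set -/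

theorem pd_off634 {F : Type*} [NormedAddCommGroup F] [NormedSpace ℝ F] {Ω : Set (V n)}
    (hi : interior (closure Ω) = Ω) {f : V n → F} (hf : ContDiff ℝ ∞ f) (h0 : ∀ x ∉ Ω, f x = 0)
    (i : Fin n) {x : V n} (hx : x ∉ Ω) : pd i f x = 0 := by
  have hcl : IsClosed {x : V n | fderiv ℝ f x = 0} := by
    have hc : Continuous (fderiv ℝ f) := hf.continuous_fderiv (by simp)
    exact isClosed_eq hc continuous_const
  have h1 : (closure Ω)ᶜ ⊆ {x : V n | fderiv ℝ f x = 0} := by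
    intro y hy
    have h2 : f =ᶠ[nhds y] fun _ => 0 := by
      filter_upwards [isClosed_closure.isOpen_compl.mem_nhds hy] with v hv
      exact h0 v fun h => hv (subset_closure h)
    show fderiv ℝ f y = 0
    rw [h2.fderiv_eq]
    simp
  have h2 : x ∈ closure ((closure Ω)ᶜ) := by
    rw [closure_compl, hi]
    exact hx
  have h3 : fderiv ℝ f x = 0 := hcl.closure_subset_iff.2 h1 h2
  unfold pd
  rw [h3]
  rfl

theorem pdm_off634 {Ω : Set (V n)} (hi : interior (closure Ω) = Ω) {P : MC n N}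
    (hP : H158.SmC P) (h0 : ∀ x ∉ Ω, P x = 0) (i : Fin n) {x : V n} (hx : x ∉ Ω) :
    pdm i P x = 0 := by
  ext a b
  simp only [pdm, Matrix.of_apply, Matrix.zero_apply]
  exact pd_off634 hi (hP a b) (fun y hy => by rw [h0 y hy]; rfl) i hx

theorem smC_sum634 {ι : Type*} (t : Finset ι) {P : ι → MC n N} (hP : ∀ i, H158.SmC (P i)) :
    H158.SmC fun x => ∑ i ∈ t, P i x := by
  intro a b
  simp only [Matrix.sum_apply]
  exact ContDiff.sum fun i _ => hP i a b

theorem smC_const634 (C : Matrix (Fin N) (Fin N) ℂ) : H158.SmC (fun _ : V n => C) := fun _ _ =>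
  contDiff_const

/-! ### the gauge identity -/

theorem gauge634 {Ω : Set (V n)} (hΩ : IsOpen Ω) (hreg : interior (closure Ω) = Ω)
    {τ : MC n N} {T1 T2 : Fin n → Fin n → MC n N} {κ1 κ2 : Fin n → MC n N} {Y1 Y2 : MC n N}
    {G : Fin n → MC n N} {a : Fin n} (hτ : H158.SmC τ) (hT1 : ∀ i j, H158.SmC (T1 i j))
    (hT2 : ∀ i j, H158.SmC (T2 i j)) (hdg : ∀ i j x, T1 i j x = dg τ i j x)
    (hT0 : ∀ i j, ∀ x ∉ Ω, T2 i j x = T1 i j x) (hκ0 : ∀ i, ∀ x ∉ Ω, κ2 i x = κ1 i x)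
    (hY1 : H158.SmC Y1) (hY2 : H158.SmC Y2) (hY0 : ∀ x ∉ Ω, Y2 x = Y1 x)
    (hG : ∀ i, H158.SmC (G i))
    (hG1 : ∀ i, ∀ x ∈ Ω, (if i = a then (1 : Matrix (Fin N) (Fin N) ℂ) else 0) + G i x
      = pdm i Y2 x)
    (e1 : ∀ x ∈ Ω, MoC T1 κ1 Y1 x = 0) (e2 : ∀ x ∈ Ω, MoC T2 κ2 Y2 x = 0) (x : V n) :
    ∑ i, pdm i (fun y => (∑ j, (T2 i j y - T1 i j y) * ((if j = a then 1 else 0) + G j y)) +
        τ y * pdm i (fun z => Y2 z - Y1 z) y) x
      + ∑ i, (κ2 i x - κ1 i x) * ((if i = a then 1 else 0) + G i x)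
      + ∑ i, κ1 i x * pdm i (fun z => Y2 z - Y1 z) x = 0 := by
  have hYd : H158.SmC fun z => Y2 z - Y1 z := H705.UFin.SmC_sub hY2 hY1
  have hpY : ∀ i, H158.SmC (pdm i fun z => Y2 z - Y1 z) := fun i => H705.UFin.SmC_pdm hYd i
  by_cases hx : x ∈ Ω
  · have hs : ∀ (Z : Fin n → MC n N) (i : Fin n) (y : V n),
        ∑ j, T1 i j y * Z j y = τ y * Z i y := by
      intro Z i y
      have h1 : ∀ j ∈ Finset.univ, T1 i j y * Z j y = if i = j then τ y * Z j y else 0 := by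
        intro j _
        rw [hdg i j y]
        unfold dg
        split_ifs <;> simp
      rw [Finset.sum_congr rfl h1]
      simp
    have hin : ∀ i, ∀ y ∈ Ω, (∑ j, (T2 i j y - T1 i j y) * ((if j = a then 1 else 0) + G j y)) +
        τ y * pdm i (fun z => Y2 z - Y1 z) y
        = (∑ j, T2 i j y * pdm j Y2 y) - ∑ j, T1 i j y * pdm j Y1 y := by
      intro i y hy
      have h1 : ∀ j ∈ Finset.univ, (T2 i j y - T1 i j y) * ((if j = a then 1 else 0) + G j y)
          = T2 i j y * pdm j Y2 y - T1 i j y * pdm j Y2 y := by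
        intro j _
        rw [hG1 j y hy, Matrix.sub_mul]
      rw [Finset.sum_congr rfl h1, Finset.sum_sub_distrib, hs (fun j => pdm j Y2) i y,
        hs (fun j => pdm j Y1) i y, H705.UFin.pdm_sub hY2 hY1, Matrix.mul_sub]
      abel
    have hp : ∀ i, pdm i (fun y => (∑ j, (T2 i j y - T1 i j y) *
        ((if j = a then 1 else 0) + G j y)) + τ y * pdm i (fun z => Y2 z - Y1 z) y) x
        = pdm i (fun y => ∑ j, T2 i j y * pdm j Y2 y) x
          - pdm i (fun y => ∑ j, T1 i j y * pdm j Y1 y) x := by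
      intro i
      rw [H158.pdm_congr hΩ (hin i) hx i]
      exact H705.UFin.pdm_sub
        (smC_sum634 _ fun j => H158.SmC_mul (hT2 i j) (H705.UFin.SmC_pdm hY2 j))
        (smC_sum634 _ fun j => H158.SmC_mul (hT1 i j) (H705.UFin.SmC_pdm hY1 j)) i x
    have hq : ∀ i ∈ Finset.univ, (κ2 i x - κ1 i x) * ((if i = a then 1 else 0) + G i x)
        = κ2 i x * pdm i Y2 x - κ1 i x * pdm i Y2 x := by
      intro i _
      rw [hG1 i x hx, Matrix.sub_mul]
    have hr : ∀ i ∈ Finset.univ, κ1 i x * pdm i (fun z => Y2 z - Y1 z) x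
        = κ1 i x * pdm i Y2 x - κ1 i x * pdm i Y1 x := by
      intro i _
      rw [H705.UFin.pdm_sub hY2 hY1, Matrix.mul_sub]
    have m1 := e1 x hx
    have m2 := e2 x hx
    unfold MoC at m1 m2
    rw [Finset.sum_congr rfl fun i _ => hp i, Finset.sum_congr rfl hq, Finset.sum_congr rfl hr,
      Finset.sum_sub_distrib, Finset.sum_sub_distrib, Finset.sum_sub_distrib]
    have m3 := congrArg₂ (fun p q => p - q) m2 m1
    simp only [sub_zero] at m3
    rw [← m3]
    abel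
  · have hsm : ∀ i, H158.SmC fun y => (∑ j, (T2 i j y - T1 i j y) *
        ((if j = a then 1 else 0) + G j y)) + τ y * pdm i (fun z => Y2 z - Y1 z) y := by
      intro i
      refine H705.UFin.SmC_add (smC_sum634 _ fun j => ?_) (H158.SmC_mul hτ (hpY i))
      exact H158.SmC_mul (H705.UFin.SmC_sub (hT2 i j) (hT1 i j))
        (H705.UFin.SmC_add (smC_const634 _) (hG j))
    have hpz : ∀ i, ∀ y ∉ Ω, pdm i (fun z => Y2 z - Y1 z) y = 0 := fun i y hy =>
      pdm_off634 hreg hYd (fun z hz => by rw [hY0 z hz, sub_self]) i hy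
    have h1 : ∀ i ∈ Finset.univ, pdm i (fun y => (∑ j, (T2 i j y - T1 i j y) *
        ((if j = a then 1 else 0) + G j y)) + τ y * pdm i (fun z => Y2 z - Y1 z) y) x = 0 := by
      intro i _
      refine pdm_off634 hreg (hsm i) (fun y hy => ?_) i hx
      rw [hpz i y hy, Matrix.mul_zero, add_zero]
      refine Finset.sum_eq_zero fun j _ => ?_
      rw [hT0 i j y hy, sub_self, Matrix.zero_mul]
    rw [Finset.sum_eq_zero h1, Finset.sum_eq_zero fun i _ => by
      rw [hκ0 i x hx, sub_self, Matrix.zero_mul], Finset.sum_eq_zero fun i _ => by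
      rw [hpz i x hx, Matrix.mul_zero]]
    simp

/-! ### bounds of derivatives -/

theorem cl_sub634 {F : Type*} [NormedAddCommGroup F] [NormedSpace ℝ F] {k : ℕ} {a b : ℝ}
    {f g : V n → F} (hf : ContDiff ℝ ∞ f) (hg : ContDiff ℝ ∞ g)
    (h1 : Cl k a f) (h2 : Cl k b g) : Cl k (a + b) (fun x => f x - g x) := by
  intro l hl x
  have e : iteratedFDeriv ℝ l (fun x => f x - g x) x =
      iteratedFDeriv ℝ l f x - iteratedFDeriv ℝ l g x :=
    iteratedFDeriv_sub_apply ((hf.of_le (by exact_mod_cast le_top)).contDiffAt)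
      ((hg.of_le (by exact_mod_cast le_top)).contDiffAt)
  rw [e]
  exact (norm_sub_le _ _).trans (add_le_add (h1 l hl x) (h2 l hl x))

theorem cl_pd634 {F : Type*} [NormedAddCommGroup F] [NormedSpace ℝ F] {k : ℕ} {δ : ℝ}
    {f : V n → F} (hf : ContDiff ℝ ∞ f) (h : Cl (k + 1) δ f) (j : Fin n) : Cl k δ (pd j f) := by
  have hL : ‖(ContinuousLinearMap.apply ℝ F (Pi.single j (1 : ℝ)) : (V n →L[ℝ] F) →L[ℝ] F)‖
      ≤ 1 := by
    refine ContinuousLinearMap.opNorm_le_bound _ zero_le_one fun T => ?_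
    rw [ContinuousLinearMap.apply_apply, one_mul]
    refine (T.le_opNorm _).trans ?_
    rw [Pi.norm_single, norm_one, mul_one]
  have hfd : ContDiff ℝ ∞ (fderiv ℝ f) := hf.fderiv_right (m := ∞) (by simp)
  have h1 : Cl k δ (fderiv ℝ f) := by
    intro l hl x
    rw [norm_iteratedFDeriv_fderiv]
    exact h (l + 1) (by omega) x
  exact H535.cl_lin _ hL hfd h1

theorem bdd634 {f : V n → ℂ} (hf : ContDiff ℝ ∞ f) (h0 : ∀ x ∉ core n, f x = 0) (k : ℕ) :
    ∃ B : ℝ, 0 < B ∧ Cl k B f := by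
  have hc : HasCompactSupport f := by
    refine HasCompactSupport.of_support_subset_isCompact H129.isCompact_core ?_
    intro x hx
    by_contra h
    exact hx (h0 x h)
  have h : ∀ l : ℕ, ∃ C, ∀ x : V n, ‖iteratedFDeriv ℝ l f x‖ ≤ C := fun l =>
    (hf.continuous_iteratedFDeriv (by exact_mod_cast le_top)).bounded_above_of_compact_support
      (hc.iteratedFDeriv l)
  choose C hC using h
  refine ⟨1 + ∑ l ∈ Finset.range (k + 1), |C l|, by positivity, fun l hl x => ?_⟩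
  calc ‖iteratedFDeriv ℝ l f x‖ ≤ C l := hC l x
    _ ≤ |C l| := le_abs_self _
    _ ≤ ∑ l ∈ Finset.range (k + 1), |C l| :=
      Finset.single_le_sum (f := fun l => |C l|) (fun i _ => abs_nonneg _)
        (Finset.mem_range.mpr (by omega))
    _ ≤ _ := by linarith

/-- The cut-off, complex valued. -/
def chc634 (x : V n) : ℂ := ((chi442 x : ℝ) : ℂ)

theorem chc_sm634 : ContDiff ℝ ∞ (chc634 : V n → ℂ) :=
  Complex.ofRealCLM.contDiff.comp chi_smooth442

theorem chc_zero634 {x : V n} (hx : x ∉ core n) : chc634 x = 0 := by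
  unfold chc634
  rw [chi_zero442 fun h => hx (bal_subset_core442 h), Complex.ofReal_zero]

theorem chc_one634 {x : V n} (hx : x ∈ bls n) : chc634 x = 1 := by
  unfold chc634
  rw [chi_one442 hx, Complex.ofReal_one]

theorem coo_sm634 (a : Fin n) : ContDiff ℝ ∞ (fun x : V n => ((x a : ℝ) : ℂ)) :=
  Complex.ofRealCLM.contDiff.comp (contDiff_apply ℝ ℝ a)

theorem zb634 (n N k : ℕ) : ∃ C : ℝ, 0 < C ∧ ∀ (E R : MC n N) (a : Fin n), H158.SmC E →
    H158.SmC R → ∀ δ : ℝ, 0 ≤ δ → δ ≤ 1 → ClC k δ E → ClC k δ R →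
    ClC k (C * δ) (fun x => chc634 x • (R x + ((x a : ℝ) : ℂ) • E x + E x * R x)) := by
  obtain ⟨B0, hB0, hb0⟩ := bdd634 (n := n) chc_sm634 (fun x hx => chc_zero634 hx) k
  have hb1 : ∀ a : Fin n, ∃ B : ℝ, 0 < B ∧ Cl k B (fun x : V n => chc634 x * ((x a : ℝ) : ℂ)) :=
    fun a => bdd634 (chc_sm634.mul (coo_sm634 a)) (fun x hx => by rw [chc_zero634 hx, zero_mul]) k
  choose B1 hB1 hb1 using hb1
  have hS : ∀ a, B1 a ≤ ∑ c, B1 c := fun a =>
    Finset.single_le_sum (f := B1) (fun c _ => (hB1 c).le) (Finset.mem_univ a)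
  have hS0 : 0 ≤ ∑ c, B1 c := Finset.sum_nonneg fun c _ => (hB1 c).le
  refine ⟨2 ^ k * B0 + 2 ^ k * (∑ c, B1 c) + 2 ^ k * (B0 * (N * 2 ^ k)), by positivity, ?_⟩
  intro E R a hE hR δ hδ0 hδ1 hEc hRc α β
  have e : (fun x => (chc634 x • (R x + ((x a : ℝ) : ℂ) • E x + E x * R x)) α β)
      = fun x => (chc634 x * R x α β + (chc634 x * ((x a : ℝ) : ℂ)) * E x α β)
        + chc634 x * ∑ γ, E x α γ * R x γ β := by
    funext x
    simp only [Matrix.smul_apply, Matrix.add_apply, Matrix.mul_apply, smul_eq_mul]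
    ring
  rw [e]
  have s1 := chc_sm634.mul (hR α β)
  have s2 := (chc_sm634.mul (coo_sm634 a)).mul (hE α β)
  have s3 : ContDiff ℝ ∞ (fun x => ∑ γ, E x α γ * R x γ β) :=
    ContDiff.sum fun γ _ => (hE α γ).mul (hR γ β)
  have c1 := H535.cl_mul chc_sm634 (hR α β) hb0 (hRc α β)
  have c2 := H535.cl_mul (chc_sm634.mul (coo_sm634 a)) (hE α β) (hb1 a) (hEc α β)
  have c3 : Cl k ((Finset.univ : Finset (Fin N)).card * (2 ^ k * (δ * δ)))
      (fun x => ∑ γ, E x α γ * R x γ β) :=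
    H535.cl_sum Finset.univ (fun γ => (hE α γ).mul (hR γ β))
      (fun γ => H535.cl_mul (hE α γ) (hR γ β) (hEc α γ) (hRc γ β))
  rw [Finset.card_univ, Fintype.card_fin] at c3
  have c4 := H535.cl_mul chc_sm634 s3 hb0 c3
  have c5 := H535.cl_add (s1.add s2) (chc_sm634.mul s3) (H535.cl_add s1 s2 c1 c2) c4
  refine H535.cl_le c5 le_rfl ?_
  have hdd : δ * δ ≤ δ := mul_le_of_le_one_left hδ0 hδ1
  have h1 : (2 : ℝ) ^ k * (B1 a * δ) ≤ 2 ^ k * ((∑ c, B1 c) * δ) := by
    have := hS a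
    gcongr
  have h2 : (2 : ℝ) ^ k * (B0 * (N * (2 ^ k * (δ * δ)))) ≤ 2 ^ k * (B0 * (N * (2 ^ k * δ))) := by
    gcongr
  calc 2 ^ k * (B0 * δ) + 2 ^ k * (B1 a * δ) + 2 ^ k * (B0 * (N * (2 ^ k * (δ * δ))))
      ≤ 2 ^ k * (B0 * δ) + 2 ^ k * ((∑ c, B1 c) * δ) + 2 ^ k * (B0 * (N * (2 ^ k * δ))) := by
        linarith
    _ = _ := by ring

end Vale.Agent.P088.H634
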